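import Vale.Agent.Lib.P327.Basic

/-!
# Finite-use approximation of relative computations (P327)

Every function recursive in `chi y` is the limit of a partial computable function of
(string, input), monotone in the string.
-/

namespace Vale.Agent.Lib.P327

open Nat.Partrec

/-- `R` approximates the function `f` along the oracle `y`. -/
structure Appr (y : X) (f : ℕ →. ℕ) (R : List Bool × ℕ →. ℕ) : Prop where
  partrec : Partrec R
  mono : ∀ τ τ' k v, τ <+: τ' → v ∈ R (τ, k) → v ∈ R (τ', k)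
  spec : ∀ k v, v ∈ f k ↔ ∃ m, v ∈ R (pre y m, k)

theorem appr_of_partrec (y : X) {f : ℕ →. ℕ} (hf : Nat.Partrec f) :
    Appr y f (fun a => f a.2) where
  partrec := (Partrec.nat_iff.2 hf).comp Computable.snd
  mono := fun _ _ _ _ _ h => h
  spec := fun _ _ => ⟨fun h => ⟨0, h⟩, fun ⟨_, h⟩ => h⟩

theorem appr_oracle (y : X) :
    Appr y (chi y) (fun a => ((a.1[a.2]?).map Bool.toNat : Part ℕ)) where
  partrec := by
    apply Computable.ofOption
    have h1 : Primrec (fun a : List Bool × ℕ => a.1[a.2]?) :=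
      Primrec.list_getElem?.comp Primrec.fst Primrec.snd
    have h2 : Primrec (fun a : List Bool × ℕ => (a.1[a.2]?).map Bool.toNat) :=
      Primrec.option_map h1 ((Primrec.dom_finite Bool.toNat).comp Primrec.snd).to₂
    exact h2.to_comp
  mono := by
    intro τ τ' k v hτ hv
    simp only [Part.mem_coe, Option.mem_def, Option.map_eq_some_iff] at hv ⊢
    obtain ⟨b, hb, rfl⟩ := hv
    obtain ⟨t, rfl⟩ := hτ
    refine ⟨b, ?_, rfl⟩
    rw [List.getElem?_append_left (List.getElem?_eq_some_iff.1 hb).1]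
    exact hb
  spec := by
    intro k v
    constructor
    · intro hv
      refine ⟨k + 1, ?_⟩
      simp only [chi, Part.mem_some_iff] at hv
      simp only [Part.mem_coe, Option.mem_def, pre_getElem?, if_pos (Nat.lt_succ_self k)]
      simp [hv]
    · rintro ⟨m, hm⟩
      simp only [Part.mem_coe, Option.mem_def, pre_getElem?] at hm
      split_ifs at hm with h
      · simp only [Option.map_some, Option.some.injEq] at hm
        simp [chi, hm]
      · simp at hm

theorem appr_pair {y : X} {f g : ℕ →. ℕ} {Rf Rg : List Bool × ℕ →. ℕ}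
    (hf : Appr y f Rf) (hg : Appr y g Rg) :
    Appr y (fun n => Nat.pair <$> f n <*> g n)
      (fun a => (Rf a).bind fun u => (Rg a).map fun w => Nat.pair u w) where
  partrec := by
    refine hf.partrec.bind ?_
    refine Partrec.map (hg.partrec.comp Computable.fst) ?_
    exact (Primrec₂.natPair.comp (Primrec.snd.comp Primrec.fst) Primrec.snd).to_comp.to₂
  mono := by
    intro τ τ' k v hτ hv
    simp only [Part.mem_bind_iff, Part.mem_map_iff] at hv ⊢
    obtain ⟨u, hu, w, hw, rfl⟩ := hv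
    exact ⟨u, hf.mono _ _ _ _ hτ hu, w, hg.mono _ _ _ _ hτ hw, rfl⟩
  spec := by
    intro k v
    have hmem : v ∈ (Nat.pair <$> f k <*> g k) ↔ ∃ u ∈ f k, ∃ w ∈ g k, Nat.pair u w = v := by
      simp [Seq.seq, Part.mem_bind_iff, Part.mem_map_iff]
    rw [hmem]
    simp only [Part.mem_bind_iff, Part.mem_map_iff]
    constructor
    · rintro ⟨u, hu, w, hw, rfl⟩
      obtain ⟨m₁, hm₁⟩ := (hf.spec k u).1 hu
      obtain ⟨m₂, hm₂⟩ := (hg.spec k w).1 hw
      refine ⟨max m₁ m₂, u, hf.mono _ _ _ _ (pre_isPrefix y (le_max_left _ _)) hm₁,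
        w, hg.mono _ _ _ _ (pre_isPrefix y (le_max_right _ _)) hm₂, rfl⟩
    · rintro ⟨m, u, hu, w, hw, rfl⟩
      exact ⟨u, (hf.spec k u).2 ⟨m, hu⟩, w, (hg.spec k w).2 ⟨m, hw⟩, rfl⟩

theorem appr_comp {y : X} {f g : ℕ →. ℕ} {Rf Rg : List Bool × ℕ →. ℕ}
    (hf : Appr y f Rf) (hg : Appr y g Rg) :
    Appr y (fun n => g n >>= f)
      (fun a => (Rg a).bind fun w => Rf (a.1, w)) where
  partrec := by
    refine hg.partrec.bind ?_
    refine hf.partrec.comp ?_
    exact (Primrec.pair (Primrec.fst.comp Primrec.fst) Primrec.snd).to_comp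
  mono := by
    intro τ τ' k v hτ hv
    simp only [Part.mem_bind_iff] at hv ⊢
    obtain ⟨w, hw, hv⟩ := hv
    exact ⟨w, hg.mono _ _ _ _ hτ hw, hf.mono _ _ _ _ hτ hv⟩
  spec := by
    intro k v
    have hmem : v ∈ (g k >>= f) ↔ ∃ w ∈ g k, v ∈ f w := Part.mem_bind_iff
    rw [hmem]
    simp only [Part.mem_bind_iff]
    constructor
    · rintro ⟨w, hw, hv⟩
      obtain ⟨m₁, hm₁⟩ := (hg.spec k w).1 hw
      obtain ⟨m₂, hm₂⟩ := (hf.spec w v).1 hv
      exact ⟨max m₁ m₂, w, hg.mono _ _ _ _ (pre_isPrefix y (le_max_left _ _)) hm₁,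
        hf.mono _ _ _ _ (pre_isPrefix y (le_max_right _ _)) hm₂⟩
    · rintro ⟨m, w, hw, hv⟩
      exact ⟨w, (hg.spec k w).2 ⟨m, hw⟩, (hf.spec w v).2 ⟨m, hv⟩⟩

/-- Iteration scheme for the primitive recursion case. -/
def precStep (Rf Rh : List Bool × ℕ →. ℕ) (τ : List Bool) (a n : ℕ) : Part ℕ :=
  n.rec (Rf (τ, a)) fun y IH => IH.bind fun i => Rh (τ, Nat.pair a (Nat.pair y i))

theorem precStep_mono {y : X} {f g : ℕ →. ℕ} {Rf Rg : List Bool × ℕ →. ℕ}
    (hf : Appr y f Rf) (hg : Appr y g Rg) {τ τ' : List Bool} (hτ : τ <+: τ') (a n v : ℕ)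
    (hv : v ∈ precStep Rf Rg τ a n) : v ∈ precStep Rf Rg τ' a n := by
  induction n generalizing v with
  | zero => exact hf.mono _ _ _ _ hτ hv
  | succ n ih =>
    simp only [precStep, Part.mem_bind_iff] at hv ⊢
    obtain ⟨i, hi, hv⟩ := hv
    exact ⟨i, ih i hi, hg.mono _ _ _ _ hτ hv⟩

theorem appr_prec {y : X} {f g : ℕ →. ℕ} {Rf Rg : List Bool × ℕ →. ℕ}
    (hf : Appr y f Rf) (hg : Appr y g Rg) :
    Appr y (fun p =>
        let (a, n) := Nat.unpair p
        n.rec (f a) fun y IH => do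
          let i ← IH
          g (Nat.pair a (Nat.pair y i)))
      (fun b => precStep Rf Rg b.1 b.2.unpair.1 b.2.unpair.2) where
  partrec := by
    unfold precStep
    have h1 : Computable (fun b : List Bool × ℕ => b.2.unpair.2) :=
      (Primrec.snd.comp (Primrec.unpair.comp Primrec.snd)).to_comp
    have h2 : Partrec (fun b : List Bool × ℕ => Rf (b.1, b.2.unpair.1)) :=
      hf.partrec.comp (Primrec.pair Primrec.fst
        (Primrec.fst.comp (Primrec.unpair.comp Primrec.snd))).to_comp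
    have h3 : Partrec₂ (fun (b : List Bool × ℕ) (q : ℕ × ℕ) =>
        Rg (b.1, Nat.pair b.2.unpair.1 (Nat.pair q.1 q.2))) := by
      refine hg.partrec.comp ?_
      refine (Primrec.pair (Primrec.fst.comp Primrec.fst) ?_).to_comp
      refine Primrec₂.natPair.comp
        (Primrec.fst.comp (Primrec.unpair.comp (Primrec.snd.comp Primrec.fst))) ?_
      exact Primrec₂.natPair.comp (Primrec.fst.comp Primrec.snd) (Primrec.snd.comp Primrec.snd)
    exact Partrec.nat_rec h1 h2 h3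
  mono := by
    intro τ τ' k v hτ hv
    exact precStep_mono hf hg hτ _ _ _ hv
  spec := by
    intro k v
    simp only
    generalize k.unpair.2 = n
    generalize k.unpair.1 = a
    induction n generalizing v with
    | zero =>
      exact hf.spec a v
    | succ n ih =>
      have hmem : v ∈ (Nat.rec (f a) (fun y IH => do
            let i ← IH
            g (Nat.pair a (Nat.pair y i))) (n + 1) : Part ℕ) ↔
          ∃ i ∈ (Nat.rec (f a) (fun y IH => do
            let i ← IH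
            g (Nat.pair a (Nat.pair y i))) n : Part ℕ), v ∈ g (Nat.pair a (Nat.pair n i)) :=
        Part.mem_bind_iff
      rw [hmem]
      simp only [precStep, Part.mem_bind_iff]
      constructor
      · rintro ⟨i, hi, hv⟩
        obtain ⟨m₁, hm₁⟩ := (ih i).1 hi
        obtain ⟨m₂, hm₂⟩ := (hg.spec _ v).1 hv
        exact ⟨max m₁ m₂, i, precStep_mono hf hg (pre_isPrefix y (le_max_left _ _)) _ _ _ hm₁,
          hg.mono _ _ _ _ (pre_isPrefix y (le_max_right _ _)) hm₂⟩
      · rintro ⟨m, i, hi, hv⟩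
        exact ⟨i, (ih i).2 ⟨m, hi⟩, (hg.spec _ v).2 ⟨m, hv⟩⟩

theorem appr_rfind {y : X} {f : ℕ →. ℕ} {Rf : List Bool × ℕ →. ℕ} (hf : Appr y f Rf) :
    Appr y (fun a => Nat.rfind fun n => (fun m => decide (m = 0)) <$> f (Nat.pair a n))
      (fun b => Nat.rfind fun n => (Rf (b.1, Nat.pair b.2 n)).map fun m => decide (m = 0)) where
  partrec := by
    refine Partrec.rfind ?_
    refine Partrec.map (hf.partrec.comp ?_) ?_
    · refine (Primrec.pair (Primrec.fst.comp Primrec.fst) ?_).to_comp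
      exact Primrec₂.natPair.comp (Primrec.snd.comp Primrec.fst) Primrec.snd
    · have : Primrec (fun m : ℕ => decide (m = 0)) :=
        (Primrec.eq.comp Primrec.id (Primrec.const 0)).decide
      exact (this.comp Primrec.snd).to_comp.to₂
  mono := by
    intro τ τ' k v hτ hv
    obtain ⟨h1, h2⟩ := Nat.mem_rfind.1 hv
    refine Nat.mem_rfind.2 ⟨?_, fun {m} hm => ?_⟩
    · obtain ⟨w, hw, h1⟩ := (Part.mem_map_iff _).1 h1
      exact (Part.mem_map_iff _).2 ⟨w, hf.mono _ _ _ _ hτ hw, h1⟩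
    · obtain ⟨w, hw, h1⟩ := (Part.mem_map_iff _).1 (h2 hm)
      exact (Part.mem_map_iff _).2 ⟨w, hf.mono _ _ _ _ hτ hw, h1⟩
  spec := by
    intro k v
    constructor
    · intro hv
      obtain ⟨h1, h2⟩ := Nat.mem_rfind.1 hv
      obtain ⟨w, hw, h1⟩ := (Part.mem_map_iff _).1 h1
      obtain ⟨m₁, hm₁⟩ := (hf.spec _ w).1 hw
      have key : ∀ N, N ≤ v → ∃ m, ∀ j, j < N → ∃ w', w' ∈ Rf (pre y m, Nat.pair k j) ∧
          decide (w' = 0) = false := by
        intro N
        induction N with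
        | zero => exact fun _ => ⟨0, fun j hj => absurd hj (Nat.not_lt_zero _)⟩
        | succ N ih =>
          intro hN
          obtain ⟨m, hm⟩ := ih (by omega)
          obtain ⟨w', hw', h'⟩ := (Part.mem_map_iff _).1 (h2 (show N < v by omega))
          obtain ⟨m', hm'⟩ := (hf.spec _ w').1 hw'
          refine ⟨max m m', fun j hj => ?_⟩
          by_cases hjN : j < N
          · obtain ⟨w'', hw'', h''⟩ := hm j hjN
            exact ⟨w'', hf.mono _ _ _ _ (pre_isPrefix y (le_max_left _ _)) hw'', h''⟩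
          · have : j = N := by omega
            subst this
            exact ⟨w', hf.mono _ _ _ _ (pre_isPrefix y (le_max_right _ _)) hm', h'⟩
      obtain ⟨m₂, hm₂⟩ := key v le_rfl
      refine ⟨max m₁ m₂, Nat.mem_rfind.2 ⟨?_, fun {j} hj => ?_⟩⟩
      · exact (Part.mem_map_iff _).2 ⟨w, hf.mono _ _ _ _ (pre_isPrefix y (le_max_left _ _)) hm₁, h1⟩
      · obtain ⟨w'', hw'', h''⟩ := hm₂ j hj
        exact (Part.mem_map_iff _).2
          ⟨w'', hf.mono _ _ _ _ (pre_isPrefix y (le_max_right _ _)) hw'', h''⟩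
    · rintro ⟨m, hm⟩
      obtain ⟨h1, h2⟩ := Nat.mem_rfind.1 hm
      refine Nat.mem_rfind.2 ⟨?_, fun {j} hj => ?_⟩
      · obtain ⟨w, hw, h1⟩ := (Part.mem_map_iff _).1 h1
        exact (Part.mem_map_iff _).2 ⟨w, (hf.spec _ w).2 ⟨m, hw⟩, h1⟩
      · obtain ⟨w, hw, h1⟩ := (Part.mem_map_iff _).1 (h2 hj)
        exact (Part.mem_map_iff _).2 ⟨w, (hf.spec _ w).2 ⟨m, hw⟩, h1⟩

/-- Main theorem of this file. -/
theorem exists_appr {y : X} {f : ℕ →. ℕ} (hf : Nat.RecursiveIn {chi y} f) :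
    ∃ R, Appr y f R := by
  induction hf with
  | zero =>
    exact ⟨_, appr_of_partrec y (f := fun _ => 0) Nat.Partrec.zero⟩
  | succ => exact ⟨_, appr_of_partrec y Nat.Partrec.succ⟩
  | left => exact ⟨_, appr_of_partrec y Nat.Partrec.left⟩
  | right => exact ⟨_, appr_of_partrec y Nat.Partrec.right⟩
  | oracle g hg =>
    rw [Set.mem_singleton_iff] at hg
    subst hg
    exact ⟨_, appr_oracle y⟩
  | pair _ _ ih₁ ih₂ =>
    obtain ⟨R₁, h₁⟩ := ih₁
    obtain ⟨R₂, h₂⟩ := ih₂
    exact ⟨_, appr_pair h₁ h₂⟩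
  | comp _ _ ih₁ ih₂ =>
    obtain ⟨R₁, h₁⟩ := ih₁
    obtain ⟨R₂, h₂⟩ := ih₂
    exact ⟨_, appr_comp h₁ h₂⟩
  | prec _ _ ih₁ ih₂ =>
    obtain ⟨R₁, h₁⟩ := ih₁
    obtain ⟨R₂, h₂⟩ := ih₂
    exact ⟨_, appr_prec h₁ h₂⟩
  | rfind _ ih =>
    obtain ⟨R, hR⟩ := ih
    exact ⟨_, appr_rfind hR⟩

end Vale.Agent.Lib.P327
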