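import Vale.Agent.Lib.P327.Defs

/-!
# Cantor space, strings, characteristic functions (P327)
-/

namespace Vale.Agent.Lib.P327

open Nat.Partrec

/-- The string of the first `m` bits of `y`. -/
def pre (y : X) (m : ℕ) : List Bool := (List.range m).map y

/-- `y` extends the string `τ`. -/
def Ex (τ : List Bool) (y : X) : Prop := pre y τ.length = τ

@[simp] theorem pre_length (y : X) (m : ℕ) : (pre y m).length = m := by simp [pre]

theorem pre_getElem? (y : X) (m i : ℕ) :
    (pre y m)[i]? = if i < m then some (y i) else none := by
  simp only [pre, List.getElem?_map]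
  split_ifs with h
  · simp [List.getElem?_range h]
  · rw [List.getElem?_eq_none (by simpa using h)]; rfl

theorem pre_succ (y : X) (m : ℕ) : pre y (m + 1) = pre y m ++ [y m] := by
  simp [pre, List.range_succ]

theorem pre_isPrefix (y : X) {m n : ℕ} (h : m ≤ n) : pre y m <+: pre y n := by
  induction n, h using Nat.le_induction with
  | base => exact List.prefix_refl _
  | succ n _ ih =>
    rw [pre_succ]
    exact ih.trans (List.prefix_append _ _)

theorem ex_iff {τ : List Bool} {y : X} :
    Ex τ y ↔ ∀ i, i < τ.length → τ[i]? = some (y i) := by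
  unfold Ex
  constructor
  · intro h i hi
    have := pre_getElem? y τ.length i
    rw [h, if_pos hi] at this
    exact this
  · intro h
    apply List.ext_getElem?
    intro i
    rw [pre_getElem?]
    split_ifs with hi
    · rw [h i hi]
    · rw [List.getElem?_eq_none (by omega)]

theorem ex_pre (y : X) (m : ℕ) : Ex (pre y m) y := by
  unfold Ex; simp

theorem Ex.of_isPrefix {τ τ' : List Bool} {y : X} (h : τ <+: τ') (h' : Ex τ' y) : Ex τ y := by
  rw [ex_iff] at h' ⊢
  intro i hi
  have hl := h.length_le
  rw [← h' i (by omega)]
  obtain ⟨t, rfl⟩ := h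
  rw [List.getElem?_append_left hi]

theorem Ex.isPrefix_pre {τ : List Bool} {y : X} (h : Ex τ y) {m : ℕ} (hm : τ.length ≤ m) :
    τ <+: pre y m := by
  have := pre_isPrefix y hm
  rwa [show pre y τ.length = τ from h] at this

theorem Ex.eq {τ : List Bool} {y : X} (h : Ex τ y) : pre y τ.length = τ := h

/-- Two infinite sequences agreeing below the length of a string extend it together. -/
theorem Ex.congr {τ : List Bool} {y y' : X} (h : Ex τ y) (hyy : ∀ i, i < τ.length → y i = y' i) :
    Ex τ y' := by
  rw [ex_iff] at h ⊢
  intro i hi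
  rw [h i hi, hyy i hi]

/-- The default extension of a string: zeros after its end. -/
def fill (τ : List Bool) : X := fun i => τ.getD i false

theorem ex_fill (τ : List Bool) : Ex τ (fill τ) := by
  rw [ex_iff]
  intro i hi
  simp [fill, List.getElem?_eq_getElem hi]

theorem ex_append {a b : List Bool} {y : X} :
    Ex (a ++ b) y ↔ Ex a y ∧ ∀ i, i < b.length → b[i]? = some (y (a.length + i)) := by
  simp only [ex_iff]
  constructor
  · intro h
    refine ⟨fun i hi => ?_, fun i hi => ?_⟩
    · have := h i (by simp; omega)
      rwa [List.getElem?_append_left hi] at this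
    · have := h (a.length + i) (by simp; omega)
      rwa [List.getElem?_append_right (by omega), show a.length + i - a.length = i by omega] at this
  · rintro ⟨h1, h2⟩ i hi
    by_cases hia : i < a.length
    · rw [List.getElem?_append_left hia]; exact h1 i hia
    · simp at hi
      rw [List.getElem?_append_right (by omega)]
      have := h2 (i - a.length) (by omega)
      rw [this, show a.length + (i - a.length) = i by omega]

theorem ex_nil (y : X) : Ex [] y := by simp [Ex, pre]

theorem isOpen_ex (τ : List Bool) : IsOpen {y : X | Ex τ y} := by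
  have : {y : X | Ex τ y} = ⋂ i ∈ Finset.range τ.length, {y : X | τ[i]? = some (y i)} := by
    ext y
    simp only [Set.mem_ofPred_eq, Set.mem_iInter, Finset.mem_range, ex_iff]
  rw [this]
  apply isOpen_biInter_finset
  intro i _
  have : {y : X | τ[i]? = some (y i)} = (fun y : X => y i) ⁻¹' {b | τ[i]? = some b} := rfl
  rw [this]
  exact (isOpen_discrete _).preimage (continuous_apply i)

/-- Every open neighbourhood of a point contains the cylinder of a long initial segment. -/
theorem exists_pre_of_open {U : Set X} (hU : IsOpen U) {y : X} (hy : y ∈ U) (a : ℕ) :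
    ∃ m, a ≤ m ∧ ∀ y', Ex (pre y m) y' → y' ∈ U := by
  rw [isOpen_pi_iff] at hU
  obtain ⟨I, u, hu, hsub⟩ := hU y hy
  refine ⟨max a (I.sup id + 1), le_max_left _ _, fun y' hy' => hsub ?_⟩
  intro i hi
  have hi' : i < max a (I.sup id + 1) := by
    have : i ≤ I.sup id := Finset.le_sup (f := id) hi
    omega
  have h1 := (ex_iff.1 hy') i (by simpa using hi')
  rw [pre_getElem?, if_pos hi'] at h1
  have h2 : y' i = y i := by simpa using h1.symm
  rw [h2]
  exact (hu i hi).2

/-- A continuous function into a discrete space is locally constant on cylinders. -/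
theorem exists_pre_of_continuous {α : Type*} [TopologicalSpace α] [DiscreteTopology α]
    {φ : X → α} (hφ : Continuous φ) (y : X) (a : ℕ) :
    ∃ m, a ≤ m ∧ ∀ y', Ex (pre y m) y' → φ y' = φ y := by
  have hU : IsOpen (φ ⁻¹' {φ y}) := (isOpen_discrete _).preimage hφ
  exact exists_pre_of_open hU (by simp) a

/-- Uniform continuity: a continuous map from Cantor space to a discrete space depends
only on a fixed number of initial bits. -/
theorem exists_modulus {α : Type*} [TopologicalSpace α] [DiscreteTopology α]
    {φ : X → α} (hφ : Continuous φ) (a : ℕ) :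
    ∃ M, a ≤ M ∧ ∀ y y', (∀ i, i < M → y i = y' i) → φ y = φ y' := by
  choose m _ hm' using fun y => exists_pre_of_continuous hφ y 0
  obtain ⟨t, ht⟩ := (isCompact_univ (X := X)).elim_nhds_subcover
    (fun y => {y' | Ex (pre y (m y)) y'})
    (fun y _ => (isOpen_ex _).mem_nhds (ex_pre y (m y)))
  refine ⟨max a (t.sup m), le_max_left _ _, fun y y' hyy => ?_⟩
  obtain ⟨z, hz, hyz⟩ := Set.mem_iUnion₂.1 (ht.2 (Set.mem_univ y))
  have hmz : m z ≤ max a (t.sup m) := le_trans (Finset.le_sup hz) (le_max_right _ _)
  have hy' : Ex (pre z (m z)) y' := by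
    refine Ex.congr hyz (fun i hi => hyy i ?_)
    simp at hi
    omega
  rw [hm' z y hyz, hm' z y' hy']

end Vale.Agent.Lib.P327
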