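import Mathlib

/-!
# Definitions used in the statements of the P327 hand-ins
-/

namespace Vale.Agent.Lib.P327

/-- Cantor space: subsets of the natural numbers as Boolean sequences. -/
abbrev X := ℕ → Bool

/-- The characteristic function of a set, as a (total) oracle in Mathlib's sense. -/
def chi (A : X) : ℕ →. ℕ := fun n => Part.some (A n).toNat

/-- The shift on Cantor space. -/
def shift (x : X) : X := fun n => x (n + 1)

/-- Every input bit influences only finitely many output bits. -/
def TailLocal (g : X → X) : Prop :=
  ∀ m, ∃ K, ∀ y y' : X, (∀ i, m ≤ i → y i = y' i) → ∀ k, K ≤ k → g y k = g y' k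

/-- Changing only the first `m` input bits changes the output by an amount (bitwise) that
depends only on the first `M` input bits of the two inputs. -/
def LocalDiff (l : X → X) : Prop :=
  ∀ m, ∃ M, ∀ y₁ y₂ y₃ y₄ : X,
    (∀ i, m ≤ i → y₁ i = y₂ i) → (∀ i, m ≤ i → y₃ i = y₄ i) →
    (∀ i, i < M → y₁ i = y₃ i) → (∀ i, i < M → y₂ i = y₄ i) →
    ∀ k, xor (l y₁ k) (l y₂ k) = xor (l y₃ k) (l y₄ k)

/-- Bitwise sum over the field with two elements. -/
def xorS (x x' : X) : X := fun n => xor (x n) (x' n)

/-- Affine over the field with two elements: linear map plus a constant. -/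
def IsAffine (f : X → X) : Prop :=
  ∀ x x', f (xorS x x') = xorS (xorS (f x) (f x')) (f fun _ => false)

/-- Turing reducibility between subsets of the natural numbers. -/
def TLe (A B : X) : Prop := TuringReducible (chi A) (chi B)

/-- Turing equivalence, as a setoid (used only through `Deg`). -/
def degSetoid : Setoid X where
  r A B := TLe A B ∧ TLe B A
  iseqv :=
    ⟨fun A => ⟨TuringReducible.refl _, TuringReducible.refl _⟩, fun h => ⟨h.2, h.1⟩,
      fun h₁ h₂ => ⟨TuringReducible.trans h₁.1 h₂.1, TuringReducible.trans h₂.2 h₁.2⟩⟩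

/-- The Turing degrees of subsets of the natural numbers. -/
def Deg : Type := Quotient degSetoid

/-- The degree of a set. -/
def deg (A : X) : Deg := Quotient.mk degSetoid A

/-- The order of the Turing degrees. -/
def Deg.le : Deg → Deg → Prop :=
  Quotient.lift₂ (s₁ := degSetoid) (s₂ := degSetoid) TLe (fun _ _ _ _ h₁ h₂ =>
    propext ⟨fun h => TuringReducible.trans (TuringReducible.trans h₁.2 h) h₂.1,
      fun h => TuringReducible.trans (TuringReducible.trans h₁.1 h) h₂.2⟩)

end Vale.Agent.Lib.P327
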