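import Vale.Agent.Lib.P327.Appr

/-!
# Baire category forcing (P327)

If `l y` is computable from `y` for every `y`, one code works on a dense subset of a cylinder.
-/

namespace Vale.Agent.Lib.P327

open Nat.Partrec Encodable

/-- The function computed by a code on pairs (string, number). -/
def Rc (c : Code) : List Bool × ℕ →. ℕ := fun a => c.eval (encode a)

theorem partrec_Rc (c : Code) : Partrec (Rc c) := by
  have : Partrec₂ Code.eval := Code.eval_part
  exact this.comp (Computable.const c) Computable.encode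

theorem exists_code_of_partrec {R : List Bool × ℕ →. ℕ} (hR : Partrec R) :
    ∃ c, ∀ a, Rc c a = R a := by
  obtain ⟨c, hc⟩ := Code.exists_code.1 hR
  refine ⟨c, fun a => ?_⟩
  simp only [Rc, hc, encodek, Part.coe_some, Part.bind_some]
  exact Part.map_id' (fun _ => rfl) _

/-- The monotonicity property of approximations. -/
def Mono (R : List Bool × ℕ →. ℕ) : Prop :=
  ∀ τ τ' k v, τ <+: τ' → v ∈ R (τ, k) → v ∈ R (τ', k)

/-- Code `c` computes `l y` from `y`, with finite use. -/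
def Works (l : X → X) (c : Code) (y : X) : Prop :=
  Mono (Rc c) ∧ ∀ k v, v ∈ chi (l y) k ↔ ∃ m, v ∈ Rc c (pre y m, k)

theorem exists_works {l : X → X} (hT : ∀ y, Nat.RecursiveIn {chi y} (chi (l y))) (y : X) :
    ∃ c, Works l c y := by
  obtain ⟨R, hR⟩ := exists_appr (hT y)
  obtain ⟨c, hc⟩ := exists_code_of_partrec hR.partrec
  refine ⟨c, ?_, fun k v => ?_⟩
  · intro τ τ' k v hτ hv
    rw [hc] at hv ⊢
    exact hR.mono _ _ _ _ hτ hv
  · simp only [hc]
    exact hR.spec k v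

/-- `τ` forces that `c` fails. -/
def Kill (l : X → X) (c : Code) (τ : List Bool) : Prop := ∀ y, Ex τ y → ¬ Works l c y

theorem exists_unkilled {l : X → X} (hT : ∀ y, Nat.RecursiveIn {chi y} (chi (l y))) :
    ∃ c ρ, ∀ τ, ρ <+: τ → ¬ Kill l c τ := by
  by_contra hcon
  push Not at hcon
  let U : Code → Set X := fun c => {y | ∃ τ, Ex τ y ∧ Kill l c τ}
  have hUo : ∀ c, IsOpen (U c) := by
    intro c
    have : U c = ⋃ τ : {τ // Kill l c τ}, {y | Ex τ.1 y} := by
      ext y
      simp only [U, Set.mem_ofPred_eq, Set.mem_iUnion, Subtype.exists, exists_prop]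
      constructor
      · rintro ⟨τ, h1, h2⟩; exact ⟨τ, h2, h1⟩
      · rintro ⟨τ, h1, h2⟩; exact ⟨τ, h2, h1⟩
    rw [this]
    exact isOpen_iUnion fun τ => isOpen_ex _
  have hUd : ∀ c, Dense (U c) := by
    intro c
    rw [dense_iff_inter_open]
    rintro V hV ⟨y, hy⟩
    obtain ⟨m, -, hm⟩ := exists_pre_of_open hV hy 0
    obtain ⟨τ, h1, h2⟩ := hcon c (pre y m)
    refine ⟨fill τ, hm _ (Ex.of_isPrefix h1 (ex_fill τ)), τ, ex_fill τ, h2⟩
  have hd : Dense (⋂ c, U c) := dense_iInter_of_isOpen hUo hUd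
  obtain ⟨y, hy⟩ := hd.nonempty
  obtain ⟨c, hc⟩ := exists_works hT y
  obtain ⟨τ, h1, h2⟩ := Set.mem_iInter.1 hy c
  exact h2 y h1 hc

/-- Outcome of the forcing argument. -/
structure Forced (l : X → X) (R : List Bool × ℕ →. ℕ) (ρ : List Bool) : Prop where
  partrec : Partrec R
  mono : Mono R
  sound : ∀ τ k v, ρ <+: τ → v ∈ R (τ, k) → ∀ y, Ex τ y → (l y k).toNat = v
  dense : ∀ τ k, ρ <+: τ → ∃ τ' v, τ <+: τ' ∧ v ∈ R (τ', k)

theorem exists_forced {l : X → X} (hl : Continuous l)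
    (hT : ∀ y, Nat.RecursiveIn {chi y} (chi (l y))) :
    ∃ R ρ, Forced l R ρ := by
  obtain ⟨c, ρ, hc⟩ := exists_unkilled hT
  have hw : ∀ τ, ρ <+: τ → ∃ y, Ex τ y ∧ Works l c y := by
    intro τ hτ
    have := hc τ hτ
    simp only [Kill, not_forall, not_not] at this
    obtain ⟨y, h1, h2⟩ := this
    exact ⟨y, h1, h2⟩
  have hmono : Mono (Rc c) := by
    obtain ⟨y, -, h⟩ := hw ρ (List.prefix_refl _)
    exact h.1
  refine ⟨Rc c, ρ, partrec_Rc c, hmono, ?_, ?_⟩
  · intro τ k v hτ hv y hy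
    have hlk : Continuous fun y => l y k := (continuous_apply k).comp hl
    obtain ⟨m, hm1, hm2⟩ := exists_pre_of_continuous hlk y τ.length
    have hpre : τ <+: pre y m := hy.isPrefix_pre hm1
    obtain ⟨y', hy', hW⟩ := hw (pre y m) (hτ.trans hpre)
    rw [← hm2 y' hy']
    have hyτ : Ex τ y' := Ex.of_isPrefix hpre hy'
    have : v ∈ Rc c (pre y' τ.length, k) := by rwa [hyτ.eq]
    have := (hW.2 k v).2 ⟨_, this⟩
    simpa [chi] using (Part.mem_some_iff.1 this).symm
  · intro τ k hτ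
    obtain ⟨y, hy, hW⟩ := hw τ hτ
    obtain ⟨m, hm⟩ := (hW.2 k (l y k).toNat).1 (by simp [chi])
    refine ⟨pre y (max m τ.length), (l y k).toNat, hy.isPrefix_pre (le_max_right _ _), ?_⟩
    exact hmono _ _ _ _ (pre_isPrefix y (le_max_left _ _)) hm

end Vale.Agent.Lib.P327
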