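import Vale.Agent.Lib.P327.Forcing

/-!
# From a cylinder to the whole space (P327)

A map on Cantor space whose every input bit influences only finitely many output bits,
and which is computable on a cylinder, is computable everywhere.
-/

namespace Vale.Agent.Lib.P327

open Nat.Partrec Encodable

/-- Finite tables are primitive recursive. -/
theorem exists_table {α β : Type} [Primcodable α] [Primcodable β] [DecidableEq α] [Inhabited β]
    (g : α → β) {D : Set α} (hD : D.Finite) : ∃ g', Primrec g' ∧ ∀ a ∈ D, g' a = g a := by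
  induction D, hD using Set.Finite.induction_on with
  | empty => exact ⟨fun _ => default, Primrec.const _, by simp⟩
  | @insert a s _ _ ih =>
    obtain ⟨g', hg', hg's⟩ := ih
    refine ⟨fun x => if x = a then g a else g' x, ?_, ?_⟩
    · exact Primrec.ite (Primrec.eq.comp Primrec.id (Primrec.const a)) (Primrec.const _) hg'
    · intro b hb
      rcases hb with rfl | hb
      · simp
      · by_cases hba : b = a
        · simp [hba]
        · simp [hba, hg's b hb]

/-- The graft of `ρ` onto the tail of `y`. -/
def graft (ρ : List Bool) (y : X) : X := fun i => if i < ρ.length then ρ.getD i false else y i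

theorem ex_graft {ρ τ : List Bool} {y : X} (hτ : Ex τ y) (hρ : ρ.length ≤ τ.length) :
    Ex (ρ ++ τ.drop ρ.length) (graft ρ y) := by
  rw [ex_append]
  constructor
  · rw [ex_iff]
    intro i hi
    simp [graft, hi]
  · intro i hi
    simp only [List.length_drop] at hi
    rw [List.getElem?_drop]
    have := (ex_iff.1 hτ) (ρ.length + i) (by omega)
    rw [this]
    simp [graft]

theorem TailLocal.localDiff {l : X → X} (hL : TailLocal l) (hl : Continuous l) : LocalDiff l := by
  intro m
  obtain ⟨K, hK⟩ := hL m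
  have hφ : Continuous (fun y : X => fun i : Fin K => l y i) :=
    continuous_pi fun i => (continuous_apply (i : ℕ)).comp hl
  obtain ⟨M, -, hMod⟩ := exists_modulus hφ 0
  refine ⟨M, fun y₁ y₂ y₃ y₄ h12 h34 h13 h24 k => ?_⟩
  by_cases hk : k < K
  · rw [congrFun (hMod y₁ y₃ h13) ⟨k, hk⟩, congrFun (hMod y₂ y₄ h24) ⟨k, hk⟩]
  · have h1 := hK y₁ y₂ h12 k (by omega)
    have h2 := hK y₃ y₄ h34 k (by omega)
    simp [h1, h2]

/-- Finite tables of computable functions are computable. -/
theorem exists_table_comp (F : List Bool → ℕ → ℕ) {D : Set (List Bool)} (hD : D.Finite)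
    (hF : ∀ τ ∈ D, Computable (F τ)) :
    ∃ g : List Bool × ℕ → ℕ, Computable g ∧ ∀ τ ∈ D, ∀ k, g (τ, k) = F τ k := by
  induction D, hD using Set.Finite.induction_on with
  | empty => exact ⟨fun _ => 0, Computable.const _, by simp⟩
  | @insert a s _ _ ih =>
    obtain ⟨g, hg, hgs⟩ := ih fun τ hτ => hF τ (Set.mem_insert_of_mem _ hτ)
    refine ⟨fun b => cond (decide (b.1 = a)) (F a b.2) (g b), ?_, ?_⟩
    · refine Computable.cond ?_ ?_ hg
      · exact (Primrec.eq.comp Primrec.fst (Primrec.const a)).decide.to_comp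
      · exact (hF a (Set.mem_insert _ _)).comp Computable.snd
    · intro τ hτ k
      by_cases hτa : τ = a
      · simp [hτa]
      · have hτs : τ ∈ s := (Set.mem_insert_iff.1 hτ).resolve_left hτa
        simp [hτa, hgs τ hτs]

/-- Combine a value with two table entries, bitwise. -/
def comb (v a b : ℕ) : ℕ :=
  (xor (decide (v ≠ 0)) (xor (decide (a ≠ 0)) (decide (b ≠ 0)))).toNat

theorem primrec_bit : Primrec (fun n : ℕ => decide (n ≠ 0)) :=
  (PrimrecPred.not (Primrec.eq.comp Primrec.id (Primrec.const 0))).decide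

theorem primrec_xor : Primrec₂ xor := Primrec.dom_finite (fun q : Bool × Bool => xor q.1 q.2)

theorem primrec_comb : Primrec (fun p : ℕ × ℕ × ℕ => comb p.1 p.2.1 p.2.2) := by
  have h1 : Primrec (fun p : ℕ × ℕ × ℕ => decide (p.1 ≠ 0)) := primrec_bit.comp Primrec.fst
  have h2 : Primrec (fun p : ℕ × ℕ × ℕ => decide (p.2.1 ≠ 0)) :=
    primrec_bit.comp (Primrec.fst.comp Primrec.snd)
  have h3 : Primrec (fun p : ℕ × ℕ × ℕ => decide (p.2.2 ≠ 0)) :=
    primrec_bit.comp (Primrec.snd.comp Primrec.snd)
  have h4 : Primrec (fun p : ℕ × ℕ × ℕ => xor (decide (p.2.1 ≠ 0)) (decide (p.2.2 ≠ 0))) :=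
    primrec_xor.comp h2 h3
  have h5 : Primrec (fun p : ℕ × ℕ × ℕ =>
      xor (decide (p.1 ≠ 0)) (xor (decide (p.2.1 ≠ 0)) (decide (p.2.2 ≠ 0)))) :=
    primrec_xor.comp h1 h4
  exact (Primrec.dom_finite Bool.toNat).comp h5

theorem computable_comb {α : Type} [Primcodable α] {F G H : α → ℕ} (hF : Computable F)
    (hG : Computable G) (hH : Computable H) :
    Computable (fun a => comb (F a) (G a) (H a)) :=
  primrec_comb.to_comp.comp (hF.pair (hG.pair hH))

/-- The global approximation. -/
def globR (R : List Bool × ℕ →. ℕ) (ρ : List Bool) (M : ℕ) (g : List Bool × ℕ → ℕ) :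
    List Bool × ℕ →. ℕ := fun a =>
  cond (decide (a.1.length < M)) Part.none
    ((R (ρ ++ a.1.drop ρ.length, a.2)).map fun v =>
      comb v (g (a.1.take M, a.2)) (g ((ρ ++ a.1.drop ρ.length).take M, a.2)))

theorem partrec_globR {R : List Bool × ℕ →. ℕ} (hR : Partrec R) (ρ : List Bool) (M : ℕ)
    {g : List Bool × ℕ → ℕ} (hg : Computable g) : Partrec (globR R ρ M g) := by
  unfold globR
  have hc : Primrec (fun a : List Bool × ℕ => decide (a.1.length < M)) :=
    (Primrec.nat_lt.comp (Primrec.list_length.comp Primrec.fst) (Primrec.const _)).decide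
  refine Partrec.cond hc.to_comp Partrec.none ?_
  have hτ : Primrec (fun a : List Bool × ℕ => ρ ++ a.1.drop ρ.length) :=
    Primrec.list_append.comp (Primrec.const ρ)
      (Primrec.list_drop.comp (Primrec.const _) Primrec.fst)
  have h2 : Primrec (fun q : (List Bool × ℕ) × ℕ => q.1.2) := Primrec.snd.comp Primrec.fst
  have hG1 : Computable (fun q : (List Bool × ℕ) × ℕ => g (q.1.1.take M, q.1.2)) := by
    refine hg.comp ?_
    have h1 : Primrec (fun q : (List Bool × ℕ) × ℕ => q.1.1.take M) :=
      Primrec.list_take.comp (Primrec.const M) (Primrec.fst.comp Primrec.fst)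
    exact (h1.pair h2).to_comp
  have hG2 : Computable (fun q : (List Bool × ℕ) × ℕ =>
      g ((ρ ++ q.1.1.drop ρ.length).take M, q.1.2)) := by
    refine hg.comp ?_
    have h1 : Primrec (fun q : (List Bool × ℕ) × ℕ => (ρ ++ q.1.1.drop ρ.length).take M) :=
      Primrec.list_take.comp (Primrec.const M) (hτ.comp Primrec.fst)
    exact (h1.pair h2).to_comp
  have hC : Computable (fun q : (List Bool × ℕ) × ℕ =>
      comb q.2 (g (q.1.1.take M, q.1.2)) (g ((ρ ++ q.1.1.drop ρ.length).take M, q.1.2))) :=
    computable_comb Computable.snd hG1 hG2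
  have hRR : Partrec (fun a : List Bool × ℕ => R (ρ ++ a.1.drop ρ.length, a.2)) :=
    hR.comp (hτ.pair Primrec.snd).to_comp
  have hC₂ : Computable₂ (fun (a : List Bool × ℕ) (v : ℕ) =>
      comb v (g (a.1.take M, a.2)) (g ((ρ ++ a.1.drop ρ.length).take M, a.2))) := hC
  exact hRR.map hC₂

theorem computable_of_recursiveIn_chi {τ : List Bool} {g : X}
    (h : Nat.RecursiveIn {chi (fill τ)} (chi g)) :
    Computable (fun k => (g k).toNat) := by
  have hfill : Nat.Partrec (chi (fill τ)) := by
    have h1 : Primrec (fun n : ℕ => (fill τ n).toNat) :=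
      (Primrec.dom_finite Bool.toNat).comp
        ((Primrec.list_getD false).comp (Primrec.const τ) Primrec.id)
    exact Partrec.nat_iff.1 h1.to_comp
  have h2 : Nat.Partrec (chi g) := Nat.RecursiveIn.partrec_of_oracle (fun f hf => by
    rw [Set.mem_singleton_iff] at hf
    subst hf
    exact hfill) h
  exact Partrec.nat_iff.2 h2

theorem take_eq_of_prefix {a b : List Bool} (h : a <+: b) {M : ℕ} (hM : M ≤ a.length) :
    b.take M = a.take M := by
  obtain ⟨t, rfl⟩ := h
  exact List.take_append_of_le_length hM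

theorem globalize {l : X → X} (hL : LocalDiff l)
    (hT : ∀ y, Nat.RecursiveIn {chi y} (chi (l y)))
    {R : List Bool × ℕ →. ℕ} {ρ : List Bool} (hF : Forced l R ρ) :
    ∃ R', Forced l R' [] := by
  obtain ⟨M₀, hM₀⟩ := hL ρ.length
  set M := max M₀ ρ.length with hMdef
  have hMρ : ρ.length ≤ M := le_max_right _ _
  have hMM : M₀ ≤ M := le_max_left _ _
  obtain ⟨g, hg, hgD⟩ := exists_table_comp (fun τ k => (l (fill τ) k).toNat)
    (D := {τ | τ.length = M}) (List.finite_length_eq Bool M)
    (fun τ _ => computable_of_recursiveIn_chi (hT (fill τ)))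
  have hprefix : ∀ {τ τ' : List Bool}, τ <+: τ' → ρ.length ≤ τ.length →
      ρ ++ τ.drop ρ.length <+: ρ ++ τ'.drop ρ.length := by
    intro τ τ' hτ hr
    obtain ⟨t, rfl⟩ := hτ
    rw [List.drop_append_of_le_length hr, ← List.append_assoc]
    exact List.prefix_append _ _
  refine ⟨globR R ρ M g, partrec_globR hF.partrec ρ M hg, ?_, ?_, ?_⟩
  · -- monotone
    intro τ τ' k v hτ hv
    unfold globR at hv ⊢
    simp only at hv ⊢
    by_cases hr : τ.length < M
    · simp [hr] at hv
    · have hl' := hτ.length_le
      have hr' : ¬ τ'.length < M := by omega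
      simp only [hr, hr', decide_false, cond_false, Part.mem_map_iff] at hv ⊢
      obtain ⟨w, hw, rfl⟩ := hv
      have hpp := hprefix hτ (by omega)
      refine ⟨w, hF.mono _ _ _ _ hpp hw, ?_⟩
      rw [take_eq_of_prefix hτ (by omega : M ≤ τ.length),
        take_eq_of_prefix hpp (by simp; omega)]
  · -- sound
    intro τ k v _ hv y hy
    unfold globR at hv
    simp only at hv
    by_cases hr : τ.length < M
    · simp [hr] at hv
    · simp only [hr, decide_false, cond_false, Part.mem_map_iff] at hv
      obtain ⟨w, hw, rfl⟩ := hv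
      have hy' : Ex (ρ ++ τ.drop ρ.length) (graft ρ y) := ex_graft hy (by omega)
      have h1 := hF.sound _ _ _ (List.prefix_append _ _) hw _ hy'
      set τ₁ := τ.take M with hτ₁
      set τ₂ := (ρ ++ τ.drop ρ.length).take M with hτ₂
      have hlen₁ : τ₁.length = M := by simp [hτ₁]; omega
      have hlen₂ : τ₂.length = M := by simp [hτ₂]; omega
      rw [hgD τ₁ hlen₁ k, hgD τ₂ hlen₂ k]
      have hex₁ : Ex τ₁ y := Ex.of_isPrefix (List.take_prefix _ _) hy
      have hex₂ : Ex τ₂ (graft ρ y) := Ex.of_isPrefix (List.take_prefix _ _) hy'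
      have hagree : ∀ {τ : List Bool} {u u' : X}, Ex τ u → Ex τ u' → ∀ i, i < τ.length →
          u i = u' i := by
        intro τ u u' hu hu' i hi
        have a1 := (ex_iff.1 hu) i hi
        have a2 := (ex_iff.1 hu') i hi
        rw [a1] at a2
        simpa using a2
      have key := hM₀ y (graft ρ y) (fill τ₁) (fill τ₂)
        (fun i hi => by simp [graft, show ¬ i < ρ.length by omega])
        (fun i hi => by
          by_cases hiM : i < M
          · have b1 := (ex_iff.1 (ex_fill τ₁)) i (by omega)
            have b2 := (ex_iff.1 (ex_fill τ₂)) i (by omega)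
            have b3 : τ₁[i]? = τ₂[i]? := by
              rw [hτ₁, hτ₂, List.getElem?_take, List.getElem?_take, if_pos hiM, if_pos hiM]
              rw [List.getElem?_append_right (by omega), List.getElem?_drop,
                show ρ.length + (i - ρ.length) = i by omega]
            rw [b1, b2] at b3
            simpa using b3
          · simp [fill, List.getD_eq_getElem?_getD, hτ₁, hτ₂, hiM])
        (fun i hi => hagree hex₁ (ex_fill τ₁) i (by omega))
        (fun i hi => hagree hex₂ (ex_fill τ₂) i (by omega)) k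
      have e1 : ∀ b : Bool, decide (b.toNat ≠ 0) = b := by intro b; cases b <;> simp
      rw [← h1]
      unfold comb
      rw [e1, e1, e1, ← key]
      cases l y k <;> cases l (graft ρ y) k <;> rfl
  · -- dense
    intro τ k _
    let τ₁ := pre (fill τ) (max τ.length M)
    have hτ₁ : τ <+: τ₁ := (ex_fill τ).isPrefix_pre (le_max_left _ _)
    have hlen : τ₁.length = max τ.length M := by simp [τ₁]
    have hlen' : M ≤ τ₁.length := by have := le_max_right τ.length M; omega
    obtain ⟨τ₂, v, ⟨w, hw⟩, hv⟩ := hF.dense (ρ ++ τ₁.drop ρ.length) k (List.prefix_append _ _)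
    obtain ⟨v', hv'⟩ : ∃ v', v' ∈ globR R ρ M g (τ₁ ++ w, k) := by
      unfold globR
      have hr : ¬ (τ₁ ++ w).length < M := by simp; omega
      simp only [hr, decide_false, cond_false]
      rw [List.drop_append_of_le_length (by omega), ← List.append_assoc, hw]
      exact ⟨_, Part.mem_map _ hv⟩
    exact ⟨τ₁ ++ w, v', hτ₁.trans (List.prefix_append _ _), hv'⟩

end Vale.Agent.Lib.P327
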