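import Vale.Agent.Lib.P327.Reduce

/-!
# Rigidity for locally finite and for affine homeomorphisms (P327)
-/

namespace Vale.Agent.Lib.P327

open Nat.Partrec Encodable

theorem continuous_shift : Continuous shift :=
  continuous_pi fun n => continuous_apply (n + 1)

theorem shift_reducible (x : X) : Nat.RecursiveIn {chi x} (chi (shift x)) := by
  have h : RT {chi x} (fun n => (x (n + 1)).toNat) :=
    rt_comp (rt_oracle x) (rt_of_computable (F := Nat.succ) Computable.succ)
  exact h

theorem exists_preimage {f h : X → X} (hf : Continuous f) (hh : Continuous h)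
    (hfh : ∀ x, f (h x) = x) (hhf : ∀ x, h (f x) = x) (τ : List Bool) :
    ∃ u₀ : List Bool, ∀ z, Ex u₀ z → ∃ y, Ex τ y ∧ f (shift (h y)) = z := by
  set x₀ := h (fill τ) with hx₀
  have hV : IsOpen {x | Ex τ (f x)} := (isOpen_ex τ).preimage hf
  have hx₀V : x₀ ∈ {x | Ex τ (f x)} := by
    change Ex τ (f (h (fill τ)))
    rw [hfh]
    exact ex_fill τ
  obtain ⟨m, -, hm⟩ := exists_pre_of_open hV hx₀V 0
  have hW : IsOpen {z | Ex (pre (shift x₀) m) (h z)} := (isOpen_ex _).preimage hh
  have hz₀W : f (shift x₀) ∈ {z | Ex (pre (shift x₀) m) (h z)} := by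
    change Ex _ (h (f (shift x₀)))
    rw [hhf]
    exact ex_pre _ _
  obtain ⟨m', -, hm'⟩ := exists_pre_of_open hW hz₀W 0
  refine ⟨pre (f (shift x₀)) m', fun z hz => ?_⟩
  let x : X := fun n => Nat.casesOn n (x₀ 0) (h z)
  refine ⟨f x, ?_, ?_⟩
  · refine hm x ?_
    rw [ex_iff]
    intro i hi
    simp only [pre_length] at hi
    rw [pre_getElem?, if_pos hi]
    cases i with
    | zero => rfl
    | succ j =>
      have h1 := (ex_iff.1 (hm' z hz)) j (by simp; omega)
      rw [pre_getElem?, if_pos (by omega)] at h1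
      simpa [x, shift] using h1
  · rw [hhf]
    have : shift x = h z := rfl
    rw [this, hfh]

/-- One half of the main theorem. -/
theorem main_half {f h : X → X} (hf : Continuous f) (hh : Continuous h)
    (hfh : ∀ x, f (h x) = x) (hhf : ∀ x, h (f x) = x)
    (hTL : LocalDiff (fun y => f (shift (h y))))
    (hmon : ∀ a b, Nat.RecursiveIn {chi b} (chi a) ↔ Nat.RecursiveIn {chi (f b)} (chi (f a)))
    (z : X) : Nat.RecursiveIn {chi z} (chi (h z)) := by
  have hl : Continuous (fun y => f (shift (h y))) := hf.comp (continuous_shift.comp hh)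
  have hT : ∀ y, Nat.RecursiveIn {chi y} (chi (f (shift (h y)))) := by
    intro y
    have := (hmon (shift (h y)) (h y)).1 (shift_reducible _)
    rwa [hfh] at this
  obtain ⟨R, ρ, hF⟩ := exists_forced hl hT
  obtain ⟨R', hF'⟩ := globalize hTL hT hF
  have hlh : ∀ y n, h (f (shift (h y))) n = h y (n + 1) := by
    intro y n
    rw [hhf]
    rfl
  obtain ⟨nx, hc, hnx⟩ := exists_nx hF' hl hh hlh (exists_preimage hf hh hfh hhf)
  have h1 := reduce_z hc (fun n τ => (hnx n τ).1) z
  have h2 := reduce_h (h := h) hc (fun n τ => (hnx n τ).1) (fun n τ y => (hnx n τ).2 y) z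
  have h3 : Nat.RecursiveIn {chi (h (ptOf nx z))} (chi (h z)) := by
    refine (hmon (h z) (h (ptOf nx z))).2 ?_
    rw [hfh, hfh]
    exact h1
  refine h3.subst fun g hg => ?_
  rw [Set.mem_singleton_iff] at hg
  subst hg
  exact h2

/-- Conjugate form of the main theorem. -/
theorem main_rigid {f h : X → X} (hf : Continuous f) (hh : Continuous h)
    (hfh : ∀ x, f (h x) = x) (hhf : ∀ x, h (f x) = x)
    (hTL : LocalDiff (fun y => f (shift (h y))))
    (hTL' : LocalDiff (fun y => h (shift (f y))))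
    (hmon : ∀ a b, Nat.RecursiveIn {chi b} (chi a) ↔ Nat.RecursiveIn {chi (f b)} (chi (f a)))
    (x : X) :
    Nat.RecursiveIn {chi x} (chi (f x)) ∧ Nat.RecursiveIn {chi (f x)} (chi x) := by
  have hmon' : ∀ a b, Nat.RecursiveIn {chi b} (chi a) ↔ Nat.RecursiveIn {chi (h b)} (chi (h a)) := by
    intro a b
    have := hmon (h a) (h b)
    rw [hfh, hfh] at this
    exact this.symm
  refine ⟨main_half hh hf hhf hfh hTL' hmon' x, ?_⟩
  have := main_half hf hh hfh hhf hTL hmon (f x)
  rwa [hhf] at this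

theorem tLe_iff (A B : X) : TLe A B ↔ Nat.RecursiveIn {chi B} (chi A) := by
  unfold TLe TuringReducible
  exact RecursiveIn.iff_nat

/-- The version for automorphisms of the degrees. -/
theorem rigid_deg {f h : X → X} (hf : Continuous f) (hh : Continuous h)
    (hfh : ∀ x, f (h x) = x) (hhf : ∀ x, h (f x) = x)
    (hTL : LocalDiff (fun y => f (shift (h y))))
    (hTL' : LocalDiff (fun y => h (shift (f y))))
    (π : Deg ≃ Deg) (hπ : ∀ a b, Deg.le a b ↔ Deg.le (π a) (π b))
    (hπf : ∀ A, π (deg A) = deg (f A)) (a : Deg) : π a = a := by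
  have hmon : ∀ a b, Nat.RecursiveIn {chi b} (chi a) ↔ Nat.RecursiveIn {chi (f b)} (chi (f a)) := by
    intro a b
    rw [← tLe_iff, ← tLe_iff]
    have := hπ (deg a) (deg b)
    rwa [hπf, hπf] at this
  induction a using Quotient.inductionOn with
  | h A =>
    have hA := main_rigid hf hh hfh hhf hTL hTL' hmon A
    have heq : deg (f A) = deg A :=
      Quotient.sound (s := degSetoid) ⟨(tLe_iff _ _).2 hA.1, (tLe_iff _ _).2 hA.2⟩
    change π (deg A) = deg A
    rw [hπf, heq]

theorem tailLocal_comp {g₁ g₂ : X → X} (h₁ : TailLocal g₁) (h₂ : TailLocal g₂) :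
    TailLocal (fun y => g₂ (g₁ y)) := by
  intro m
  obtain ⟨K₁, hK₁⟩ := h₁ m
  obtain ⟨K₂, hK₂⟩ := h₂ K₁
  exact ⟨K₂, fun y y' hyy k hk => hK₂ _ _ (hK₁ y y' hyy) k hk⟩

theorem tailLocal_shift : TailLocal shift := by
  intro m
  exact ⟨m, fun y y' hyy k hk => hyy (k + 1) (by omega)⟩

/-- Bit permutations are covered. -/
theorem tailLocal_perm (p : Equiv.Perm ℕ) : TailLocal (fun (x : X) (n : ℕ) => x (p n)) := by
  intro m
  refine ⟨(Finset.range m).sup (fun i => p.symm i) + 1, fun y y' hyy k hk => hyy _ ?_⟩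
  by_contra hlt
  have hlt' : p k < m := by omega
  have h1 : p.symm (p k) ≤ (Finset.range m).sup (fun i => p.symm i) :=
    Finset.le_sup (f := fun i => p.symm i) (Finset.mem_range.2 hlt')
  rw [Equiv.symm_apply_apply] at h1
  omega

theorem continuous_perm (p : ℕ → ℕ) : Continuous (fun (x : X) (n : ℕ) => x (p n)) :=
  continuous_pi fun n => continuous_apply (p n)

section affine

theorem xorS_comm (a b : X) : xorS a b = xorS b a := by
  funext n; simp [xorS, Bool.xor_comm]

theorem xorS_assoc (a b c : X) : xorS (xorS a b) c = xorS a (xorS b c) := by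
  funext n; simp [xorS]

theorem xorS_self (a : X) : xorS a a = fun _ => false := by
  funext n; simp [xorS]

theorem xorS_zero (a : X) : xorS a (fun _ => false) = a := by
  funext n; simp [xorS]

theorem IsAffine.three {f : X → X} (hf : IsAffine f) (a b c : X) :
    f (xorS (xorS a b) c) = xorS (xorS (f a) (f b)) (f c) := by
  rw [hf, hf]
  funext n
  simp only [xorS]
  cases f a n <;> cases f b n <;> cases f c n <;> cases f (fun _ => false) n <;> rfl

theorem IsAffine.inverse {f h : X → X} (hf : IsAffine f) (hfh : ∀ x, f (h x) = x)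
    (hhf : ∀ x, h (f x) = x) : IsAffine h := by
  intro x x'
  apply_fun f using fun a b hab => by rw [← hhf a, ← hhf b, hab]
  rw [hfh, hf.three, hfh, hfh, hfh, xorS_assoc, xorS_zero]

theorem IsAffine.comp {f g : X → X} (hf : IsAffine f) (hg : IsAffine g) :
    IsAffine (fun y => g (f y)) := by
  intro x x'
  simp only
  rw [hf, hg.three]

theorem isAffine_shift : IsAffine shift := by
  intro x x'
  funext n
  simp [shift, xorS]

theorem IsAffine.localDiff {l : X → X} (hl : IsAffine l) : LocalDiff l := by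
  intro m
  refine ⟨m, fun y₁ y₂ y₃ y₄ h12 h34 h13 h24 k => ?_⟩
  have key : xorS y₁ y₂ = xorS y₃ y₄ := by
    funext i
    by_cases hi : i < m
    · simp [xorS, h13 i hi, h24 i hi]
    · simp [xorS, h12 i (by omega), h34 i (by omega)]
  have h1 := congrFun (hl y₁ y₂) k
  have h2 := congrFun (hl y₃ y₄) k
  rw [key] at h1
  rw [h1] at h2
  simp only [xorS] at h2
  cases hh1 : l y₁ k <;> cases hh2 : l y₂ k <;> cases hh3 : l y₃ k <;> cases hh4 : l y₄ k <;>
    cases hh5 : l (fun _ => false) k <;> simp_all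

end affine

/-- The locally finite case. -/
theorem rigid_tailLocal {f h : X → X} (hf : Continuous f) (hh : Continuous h)
    (hfh : ∀ x, f (h x) = x) (hhf : ∀ x, h (f x) = x)
    (hTf : TailLocal f) (hTh : TailLocal h)
    (π : Deg ≃ Deg) (hπ : ∀ a b, Deg.le a b ↔ Deg.le (π a) (π b))
    (hπf : ∀ A, π (deg A) = deg (f A)) (a : Deg) : π a = a := by
  have h1 : TailLocal (fun y => f (shift (h y))) :=
    tailLocal_comp (tailLocal_comp hTh tailLocal_shift) hTf
  have h2 : TailLocal (fun y => h (shift (f y))) :=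
    tailLocal_comp (tailLocal_comp hTf tailLocal_shift) hTh
  exact rigid_deg hf hh hfh hhf
    (h1.localDiff (hf.comp (continuous_shift.comp hh)))
    (h2.localDiff (hh.comp (continuous_shift.comp hf))) π hπ hπf a

/-- The affine case. -/
theorem rigid_affine {f h : X → X} (hf : Continuous f) (hh : Continuous h)
    (hfh : ∀ x, f (h x) = x) (hhf : ∀ x, h (f x) = x)
    (hA : IsAffine f)
    (π : Deg ≃ Deg) (hπ : ∀ a b, Deg.le a b ↔ Deg.le (π a) (π b))
    (hπf : ∀ A, π (deg A) = deg (f A)) (a : Deg) : π a = a := by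
  have hA' := hA.inverse hfh hhf
  exact rigid_deg hf hh hfh hhf
    ((hA'.comp isAffine_shift).comp hA).localDiff
    ((hA.comp isAffine_shift).comp hA').localDiff π hπ hπf a

end Vale.Agent.Lib.P327
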