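import Vale.Agent.Lib.P327.Walk

/-!
# The oracle reductions (P327)

From the effective extension function we build, for each `z`, a point `y` with
`z ≤ y` and `h y ≤ z`.
-/

namespace Vale.Agent.Lib.P327

open Nat.Partrec Encodable

/-- A total function recursive in the oracle set `O`. -/
def RT (O : Set (ℕ →. ℕ)) (F : ℕ → ℕ) : Prop := Nat.RecursiveIn O (fun n => Part.some (F n))

theorem rt_of_computable {O : Set (ℕ →. ℕ)} {F : ℕ → ℕ} (hF : Computable F) : RT O F :=
  Nat.Partrec.recursiveIn (Partrec.nat_iff.1 hF)

theorem rt_oracle (y : X) : RT {chi y} (fun n => (y n).toNat) :=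
  Nat.RecursiveIn.oracle _ rfl

theorem rt_comp {O : Set (ℕ →. ℕ)} {F G : ℕ → ℕ} (hF : RT O F) (hG : RT O G) :
    RT O (fun n => F (G n)) :=
  (Nat.RecursiveIn.comp hF hG).of_eq fun n => by simp

theorem rt_pair {O : Set (ℕ →. ℕ)} {F G : ℕ → ℕ} (hF : RT O F) (hG : RT O G) :
    RT O (fun n => Nat.pair (F n) (G n)) :=
  (Nat.RecursiveIn.pair hF hG).of_eq fun n => by simp [Seq.seq]

theorem rt_prec {O : Set (ℕ →. ℕ)} {Step S : ℕ → ℕ} (hStep : RT O Step)
    (hS : ∀ n, S (n + 1) = Step (Nat.pair n (S n))) : RT O S := by
  have h1 : Nat.RecursiveIn O (fun _ => Part.some (S 0)) :=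
    rt_of_computable (F := fun _ => S 0) (Computable.const _)
  have h2 : Nat.RecursiveIn O (fun q => Part.some (Step q.unpair.2)) :=
    rt_comp hStep (rt_of_computable (F := fun q => q.unpair.2)
      (Primrec.snd.comp Primrec.unpair).to_comp)
  have h3 : Nat.RecursiveIn O (fun n => Part.some (Nat.pair 0 n)) :=
    rt_of_computable (F := fun n => Nat.pair 0 n)
      (Primrec₂.natPair.comp (Primrec.const 0) Primrec.id).to_comp
  refine (Nat.RecursiveIn.comp (Nat.RecursiveIn.prec h1 h2) h3).of_eq fun n => ?_
  simp only [Part.bind_eq_bind, Part.bind_some, Nat.unpair_pair]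
  induction n with
  | zero => rfl
  | succ n ih =>
    simp only at ih ⊢
    rw [ih, hS]
    simp

/-- Decoding a string, with a default value. -/
def dec (e : ℕ) : List Bool := (decode (α := List Bool) e).getD []

theorem dec_encode (τ : List Bool) : dec (encode τ) = τ := by simp [dec]

theorem primrec_dec : Primrec dec :=
  Primrec.option_getD.comp Primrec.decode (Primrec.const [])

/-- Read off the input of one extension step, from a code of `(n, e)` and a bit. -/
def stepIn (q : ℕ) : ℕ × List Bool :=
  (q.unpair.1.unpair.1, dec q.unpair.1.unpair.2 ++ [decide (q.unpair.2 ≠ 0)])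

theorem primrec_stepIn : Primrec stepIn := by
  unfold stepIn
  have h1 : Primrec (fun q : ℕ => q.unpair.1.unpair) :=
    Primrec.unpair.comp (Primrec.fst.comp Primrec.unpair)
  refine Primrec.pair (Primrec.fst.comp h1) ?_
  refine Primrec.list_concat.comp (primrec_dec.comp (Primrec.snd.comp h1)) ?_
  have h2 : PrimrecPred (fun q : ℕ => q.unpair.2 = 0) :=
    Primrec.eq.comp (Primrec.snd.comp Primrec.unpair) (Primrec.const 0)
  have h3 : PrimrecPred (fun q : ℕ => q.unpair.2 ≠ 0) := h2.not
  exact h3.decide

section
variable (nx : ℕ × List Bool → List Bool × Bool) (z : X)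

/-- The strings of the construction. -/
def sq : ℕ → List Bool
  | 0 => []
  | n + 1 => (nx (n, sq n ++ [z n])).1

/-- The point built from `z`. -/
def ptOf : X := fun i => (sq nx z (i + 1)).getD i false

variable {nx} (hnx : ∀ n τ, τ <+: (nx (n, τ)).1)

include hnx in
theorem sq_succ_prefix (n : ℕ) : sq nx z n ++ [z n] <+: sq nx z (n + 1) := hnx _ _

include hnx in
theorem sq_prefix {m n : ℕ} (h : m ≤ n) : sq nx z m <+: sq nx z n := by
  induction n, h using Nat.le_induction with
  | base => exact List.prefix_refl _
  | succ n _ ih =>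
    exact ih.trans ((List.prefix_append _ _).trans (sq_succ_prefix z hnx n))

include hnx in
theorem sq_length (n : ℕ) : n ≤ (sq nx z n).length := by
  induction n with
  | zero => simp
  | succ n ih =>
    have := (sq_succ_prefix z hnx n).length_le
    simp only [List.length_append, List.length_singleton] at this
    omega

include hnx in
theorem ex_sq (n : ℕ) : Ex (sq nx z n) (ptOf nx z) := by
  rw [ex_iff]
  intro i hi
  have hi' : i < (sq nx z (i + 1)).length := sq_length z hnx (i + 1)
  have key : (sq nx z n)[i]? = (sq nx z (i + 1))[i]? := by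
    rcases le_total n (i + 1) with h | h
    · obtain ⟨t, ht⟩ := sq_prefix z hnx h
      rw [← ht, List.getElem?_append_left hi]
    · obtain ⟨t, ht⟩ := sq_prefix z hnx h
      rw [← ht, List.getElem?_append_left hi']
  rw [key, List.getElem?_eq_getElem hi']
  simp [ptOf, hi']

include hnx in
theorem bit_eq (n : ℕ) : ptOf nx z (sq nx z n).length = z n := by
  have h1 : Ex (sq nx z n ++ [z n]) (ptOf nx z) :=
    Ex.of_isPrefix (sq_succ_prefix z hnx n) (ex_sq z hnx (n + 1))
  have h2 := (ex_append.1 h1).2 0 (by simp)
  simpa using h2.symm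

end

/-- The recursion producing the (codes of the) strings, relative to a source of bits. -/
theorem rt_sq {O : Set (ℕ →. ℕ)} {nx : ℕ × List Bool → List Bool × Bool} (hc : Computable nx)
    {z : X} {Bit : ℕ → ℕ} (hBit : RT O Bit)
    (hB : ∀ n, decide (Bit (Nat.pair n (encode (sq nx z n))) ≠ 0) = z n) :
    RT O (fun n => encode (sq nx z n)) := by
  have hW : Computable (fun q : ℕ => encode (nx (stepIn q)).1) :=
    Computable.encode.comp (Computable.fst.comp (hc.comp primrec_stepIn.to_comp))
  have hStep : RT O (fun q => encode (nx (stepIn (Nat.pair q (Bit q)))).1) :=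
    rt_comp (rt_of_computable hW) (rt_pair (rt_of_computable Computable.id) hBit)
  refine rt_prec hStep fun n => ?_
  simp only [stepIn, Nat.unpair_pair, dec_encode, hB]
  rfl

theorem decide_toNat_ne (b : Bool) : decide (b.toNat ≠ 0) = b := by cases b <;> simp

/-- `z` is computable from the point built from it. -/
theorem reduce_z {nx : ℕ × List Bool → List Bool × Bool} (hc : Computable nx)
    (hnx : ∀ n τ, τ <+: (nx (n, τ)).1) (z : X) :
    Nat.RecursiveIn {chi (ptOf nx z)} (chi z) := by
  set y := ptOf nx z with hy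
  have hlen : Computable (fun q : ℕ => (dec q).length) :=
    (Primrec.list_length.comp primrec_dec).to_comp
  have hlen' : Computable (fun q : ℕ => (dec q.unpair.2).length) :=
    (Primrec.list_length.comp (primrec_dec.comp (Primrec.snd.comp Primrec.unpair))).to_comp
  have hBit : RT {chi y} (fun q => (y (dec q.unpair.2).length).toNat) :=
    rt_comp (rt_oracle y) (rt_of_computable hlen')
  have hS := rt_sq (z := z) hc hBit (fun n => by
    simp only [Nat.unpair_pair, dec_encode, hy, bit_eq z hnx n, decide_toNat_ne])
  have hfin : RT {chi y} (fun n => (y (dec (encode (sq nx z n))).length).toNat) :=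
    rt_comp (rt_comp (rt_oracle y) (rt_of_computable hlen)) hS
  refine Nat.RecursiveIn.of_eq hfin fun n => ?_
  simp only [dec_encode, hy, bit_eq z hnx n]
  rfl

/-- The output of `h` on the point built from `z` is computable from `z`. -/
theorem reduce_h {nx : ℕ × List Bool → List Bool × Bool} (hc : Computable nx)
    (hnx : ∀ n τ, τ <+: (nx (n, τ)).1) {h : X → X}
    (hval : ∀ n τ y, Ex (nx (n, τ)).1 y → h y n = (nx (n, τ)).2) (z : X) :
    Nat.RecursiveIn {chi z} (chi (h (ptOf nx z))) := by
  have hfst : Computable (fun q : ℕ => q.unpair.1) :=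
    (Primrec.fst.comp Primrec.unpair).to_comp
  have hBit : RT {chi z} (fun q => (z q.unpair.1).toNat) :=
    rt_comp (rt_oracle z) (rt_of_computable hfst)
  have hS := rt_sq (z := z) hc hBit (fun n => by
    simp only [Nat.unpair_pair, decide_toNat_ne])
  have hW : Computable (fun q : ℕ => ((nx (stepIn q)).2).toNat) :=
    (Primrec.dom_finite Bool.toNat).to_comp.comp (Computable.snd.comp (hc.comp primrec_stepIn.to_comp))
  have hfin : RT {chi z} (fun n =>
      ((nx (stepIn (Nat.pair (Nat.pair n (encode (sq nx z n))) (z n).toNat))).2).toNat) :=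
    rt_comp (rt_of_computable hW)
      (rt_pair (rt_pair (rt_of_computable Computable.id) hS) (rt_oracle z))
  refine Nat.RecursiveIn.of_eq hfin fun n => ?_
  simp only [stepIn, Nat.unpair_pair, dec_encode, decide_toNat_ne]
  have h1 : Ex (nx (n, sq nx z n ++ [z n])).1 (ptOf nx z) := ex_sq z hnx (n + 1)
  rw [← hval n _ _ h1]
  rfl

end Vale.Agent.Lib.P327
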