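import Vale.Agent.Lib.P327.Global

/-!
# Walking along the conjugated shift (P327)

Given a computable approximation of `l` on a dense set of strings and the relation
`h (l y) n = h y (n + 1)`, every bit of `h y` can be forced effectively.
-/

namespace Vale.Agent.Lib.P327

open Nat.Partrec Encodable

/-- Stage `t` of the code `c` on string `τ` and position `k`. -/
def rp (c : Code) (t : ℕ) (τ : List Bool) (k : ℕ) : Option ℕ := Code.evaln t c (encode (τ, k))

/-- Within `t` steps, the code computes the whole string `u` from `τ`. -/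
def Check (c : Code) (t : ℕ) (τ u : List Bool) : Prop :=
  (List.range u.length).map (rp c t τ) = u.map (fun b => some b.toNat)

instance (c : Code) (t : ℕ) (τ u : List Bool) : Decidable (Check c t τ u) := by
  unfold Check; infer_instance

/-- One step of a witness chain. -/
def step (c : Code) (o : Option (List Bool)) (p : ℕ × List Bool) : Option (List Bool) :=
  o.bind fun cur => if Check c p.1 cur p.2 then some p.2 else none

/-- The end of a witness chain starting at `τ`. -/
def chain (c : Code) (ws : List (ℕ × List Bool)) (τ : List Bool) : Option (List Bool) :=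
  ws.foldl (step c) (some τ)

/-- Reading the first bit from a table. -/
def tab (M : ℕ) (T : List Bool → Bool) (u : List Bool) : Option Bool :=
  if u.length < M then none else some (T (u.take M))

/-- The value certified by a witness chain. -/
def val (c : Code) (M : ℕ) (T : List Bool → Bool) (ws : List (ℕ × List Bool)) (τ : List Bool) :
    Option Bool :=
  (chain c ws τ).bind (tab M T)

theorem primrec_rp (c : Code) : Primrec (fun a : (ℕ × List Bool) × ℕ => rp c a.1.1 a.1.2 a.2) := by
  unfold rp
  refine Code.primrec_evaln.comp (Primrec.pair (Primrec.pair ?_ (Primrec.const c)) ?_)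
  · exact Primrec.fst.comp Primrec.fst
  · refine Primrec.encode.comp (Primrec.pair (Primrec.snd.comp Primrec.fst) Primrec.snd)

theorem primrecPred_check (c : Code) :
    PrimrecPred (fun a : (ℕ × List Bool) × List Bool => Check c a.1.1 a.1.2 a.2) := by
  unfold Check
  refine Primrec.eq.comp ?_ ?_
  · refine Primrec.list_map (Primrec.list_range.comp (Primrec.list_length.comp Primrec.snd)) ?_
    exact (primrec_rp c).comp
      (Primrec.pair (Primrec.fst.comp Primrec.fst) Primrec.snd) |>.to₂
  · refine Primrec.list_map Primrec.snd ?_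
    exact (Primrec.option_some.comp
      ((Primrec.dom_finite Bool.toNat).comp Primrec.snd)).to₂

theorem primrec_step (c : Code) :
    Primrec (fun a : Option (List Bool) × (ℕ × List Bool) => step c a.1 a.2) := by
  unfold step
  refine Primrec.option_bind Primrec.fst ?_
  refine Primrec.ite ?_ ?_ ?_
  · exact (primrecPred_check c).comp
      (Primrec.pair (Primrec.pair (Primrec.fst.comp (Primrec.snd.comp Primrec.fst)) Primrec.snd)
        (Primrec.snd.comp (Primrec.snd.comp Primrec.fst)))
  · exact Primrec.option_some.comp (Primrec.snd.comp (Primrec.snd.comp Primrec.fst))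
  · exact Primrec.const none

theorem primrec_tab (M : ℕ) {T : List Bool → Bool} (hT : Primrec T) : Primrec (tab M T) := by
  unfold tab
  refine Primrec.ite (Primrec.nat_lt.comp Primrec.list_length (Primrec.const M))
    (Primrec.const none) (Primrec.option_some.comp (hT.comp ?_))
  exact Primrec.list_take.comp (Primrec.const M) Primrec.id

theorem primrec_val (c : Code) (M : ℕ) {T : List Bool → Bool} (hT : Primrec T) :
    Primrec (fun a : List (ℕ × List Bool) × List Bool => val c M T a.1 a.2) := by
  unfold val chain
  refine Primrec.option_bind ?_ ((primrec_tab M hT).comp Primrec.snd).to₂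
  exact Primrec.list_foldl Primrec.fst (Primrec.option_some.comp Primrec.snd)
    ((primrec_step c).comp Primrec.snd).to₂

theorem chain_nil (c : Code) (τ : List Bool) : chain c [] τ = some τ := rfl

theorem foldl_step_none (c : Code) (ws : List (ℕ × List Bool)) :
    ws.foldl (step c) Option.none = Option.none := by
  induction ws with
  | nil => rfl
  | cons p ws ih => simpa [step] using ih

theorem val_cons {c : Code} {M : ℕ} {T : List Bool → Bool} {t : ℕ} {u : List Bool}
    {ws : List (ℕ × List Bool)} {τ : List Bool} {v : Bool}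
    (hv : val c M T ((t, u) :: ws) τ = some v) : Check c t τ u ∧ val c M T ws u = some v := by
  unfold val chain at hv
  simp only [List.foldl_cons, step, Option.bind_some] at hv
  by_cases hc : Check c t τ u
  · rw [if_pos hc] at hv
    exact ⟨hc, hv⟩
  · rw [if_neg hc, foldl_step_none] at hv
    simp at hv

theorem val_cons' {c : Code} {M : ℕ} {T : List Bool → Bool} {t : ℕ} {u : List Bool}
    {ws : List (ℕ × List Bool)} {τ : List Bool} (hc : Check c t τ u) :
    val c M T ((t, u) :: ws) τ = val c M T ws u := by
  unfold val chain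
  simp only [List.foldl_cons, step, Option.bind_some]
  rw [if_pos hc]

theorem Check.getElem {c : Code} {t : ℕ} {τ u : List Bool} (hc : Check c t τ u) {k : ℕ}
    (hk : k < u.length) : ∃ b, u[k]? = some b ∧ rp c t τ k = some b.toNat := by
  have h := congrArg (·[k]?) hc
  simp only [List.getElem?_map, List.getElem?_range hk, Option.map_some] at h
  rw [List.getElem?_eq_getElem hk] at h ⊢
  exact ⟨_, rfl, by simpa using h⟩

/-- The approximation computed by a code is sound for chains. -/
theorem check_sound {l : X → X} {c : Code} (hc : Forced l (Rc c) []) {t : ℕ} {τ u : List Bool}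
    (hch : Check c t τ u) {y : X} (hy : Ex τ y) : Ex u (l y) := by
  rw [ex_iff]
  intro k hk
  obtain ⟨b, hb, hb'⟩ := hch.getElem hk
  rw [hb]
  have h1 : b.toNat ∈ Rc c (τ, k) := Code.evaln_sound hb'
  have h2 := hc.sound τ k _ (List.nil_prefix) h1 y hy
  have h3 : l y k = b := by
    cases hh : l y k <;> cases b <;> simp_all
  rw [h3]

theorem val_sound {l h : X → X} {c : Code} (hc : Forced l (Rc c) [])
    (hlh : ∀ y n, h (l y) n = h y (n + 1)) {M : ℕ} {T : List Bool → Bool}
    (hT : ∀ u y, u.length = M → Ex u y → T u = h y 0)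
    (ws : List (ℕ × List Bool)) (τ : List Bool) (v : Bool) (hv : val c M T ws τ = some v)
    (y : X) (hy : Ex τ y) : h y ws.length = v := by
  induction ws generalizing τ y with
  | nil =>
    simp only [val, chain_nil, Option.bind_some, tab] at hv
    split_ifs at hv with hl
    simp only [Option.some.injEq] at hv
    rw [← hv]
    simp only [List.length_nil]
    rw [hT (τ.take M) y (by simp; omega) (Ex.of_isPrefix (List.take_prefix _ _) hy)]
  | cons p ws ih =>
    obtain ⟨t, u⟩ := p
    obtain ⟨h1, h2⟩ := val_cons hv
    have h3 := ih u h2 (l y) (check_sound hc h1 hy)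
    rw [hlh] at h3
    simpa using h3

/-- Simultaneous density. -/
theorem dense_all {l : X → X} {R : List Bool × ℕ →. ℕ} (hF : Forced l R []) (N : ℕ)
    (τ : List Bool) : ∃ τ', τ <+: τ' ∧ ∀ k, k < N → ∃ v, v ∈ R (τ', k) := by
  induction N with
  | zero => exact ⟨τ, List.prefix_refl _, fun k hk => absurd hk (Nat.not_lt_zero _)⟩
  | succ N ih =>
    obtain ⟨τ₁, h1, h2⟩ := ih
    obtain ⟨τ₂, v, h3, h4⟩ := hF.dense τ₁ N List.nil_prefix
    refine ⟨τ₂, h1.trans h3, fun k hk => ?_⟩
    by_cases hkN : k < N
    · obtain ⟨v', hv'⟩ := h2 k hkN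
      exact ⟨v', hF.mono _ _ _ _ h3 hv'⟩
    · have : k = N := by omega
      subst this
      exact ⟨v, h4⟩

/-- A uniform stage bound. -/
theorem exists_stage (c : Code) (τ : List Bool) (N : ℕ) (hN : ∀ k, k < N → ∃ v, v ∈ Rc c (τ, k)) :
    ∃ t, ∀ k, k < N → ∃ v, rp c t τ k = some v := by
  induction N with
  | zero => exact ⟨0, fun k hk => absurd hk (Nat.not_lt_zero _)⟩
  | succ N ih =>
    obtain ⟨t, ht⟩ := ih fun k hk => hN k (by omega)
    obtain ⟨v, hv⟩ := hN N (Nat.lt_succ_self N)
    obtain ⟨t', ht'⟩ := Code.evaln_complete.1 hv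
    refine ⟨max t t', fun k hk => ?_⟩
    by_cases hkN : k < N
    · obtain ⟨v', hv'⟩ := ht k hkN
      exact ⟨v', Code.evaln_mono (le_max_left _ _) hv'⟩
    · have : k = N := by omega
      subst this
      exact ⟨v, Code.evaln_mono (le_max_right _ _) ht'⟩

theorem val_dense {l : X → X} {c : Code} (hc : Forced l (Rc c) []) (hl : Continuous l)
    (hOpen : ∀ τ : List Bool, ∃ u₀ : List Bool, ∀ z, Ex u₀ z → ∃ y, Ex τ y ∧ l y = z)
    {M : ℕ} {T : List Bool → Bool} (n : ℕ) (τ : List Bool) :
    ∃ ws w v, ws.length = n ∧ val c M T ws (τ ++ w) = some v := by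
  induction n generalizing τ with
  | zero =>
    let τ' := pre (fill τ) (max τ.length M)
    obtain ⟨w, hw⟩ : τ <+: τ' := (ex_fill τ).isPrefix_pre (le_max_left _ _)
    have hlen : τ'.length = max τ.length M := by simp [τ']
    refine ⟨[], w, T (τ'.take M), rfl, ?_⟩
    rw [hw]
    simp only [val, chain_nil, Option.bind_some, tab]
    rw [if_neg (by have := le_max_right τ.length M; omega)]
  | succ n ih =>
    obtain ⟨u₀, hu₀⟩ := hOpen τ
    obtain ⟨ws, w, v, hws, hv⟩ := ih u₀
    set u := u₀ ++ w with hu
    obtain ⟨y, hy, hyz⟩ := hu₀ (fill u) (Ex.of_isPrefix (List.prefix_append _ _) (ex_fill u))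
    have hφ : Continuous (fun y : X => fun i : Fin u.length => l y i) :=
      continuous_pi fun i => (continuous_apply (i : ℕ)).comp hl
    obtain ⟨m, hm, hmm⟩ := exists_pre_of_continuous hφ y τ.length
    obtain ⟨τ', hτ', hall⟩ := dense_all hc u.length (pre y m)
    obtain ⟨t, ht⟩ := exists_stage c τ' u.length hall
    have hch : Check c t τ' u := by
      unfold Check
      apply List.ext_getElem?
      intro k
      by_cases hk : k < u.length
      · obtain ⟨v', hv'⟩ := ht k hk
        have h1 : v' ∈ Rc c (τ', k) := Code.evaln_sound hv'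
        have hex : Ex (pre y m) (fill τ') := Ex.of_isPrefix hτ' (ex_fill τ')
        have h2 := hc.sound τ' k _ List.nil_prefix h1 (fill τ') (ex_fill τ')
        have h3 := congrFun (hmm (fill τ') hex) ⟨k, hk⟩
        simp only at h3
        rw [h3, hyz] at h2
        have h4 : fill u k = u[k] := by simp [fill, hk]
        rw [h4] at h2
        simp only [List.getElem?_map, List.getElem?_range hk, Option.map_some,
          List.getElem?_eq_getElem hk]
        rw [hv', h2]
      · have : k ≥ u.length := by omega
        simp only [List.getElem?_map]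
        rw [List.getElem?_eq_none (by simpa using this), List.getElem?_eq_none this]
        rfl
    obtain ⟨w', hw'⟩ : τ <+: τ' := (hy.isPrefix_pre hm).trans hτ'
    refine ⟨(t, u) :: ws, w', v, by simp [hws], ?_⟩
    rw [hw', val_cons' hch, hv]

/-- The certified search. -/
def nxOpt (c : Code) (M : ℕ) (T : List Bool → Bool) (a : ℕ × List Bool) (e : ℕ) :
    Option (List Bool × Bool) :=
  (decode (α := List Bool × List (ℕ × List Bool)) e).bind fun p =>
    if p.2.length = a.1 then (val c M T p.2 (a.2 ++ p.1)).map fun v => (a.2 ++ p.1, v) else none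

theorem primrec_nxOpt (c : Code) (M : ℕ) {T : List Bool → Bool} (hT : Primrec T) :
    Primrec₂ (nxOpt c M T) := by
  unfold nxOpt
  refine Primrec.option_bind (Primrec.decode.comp Primrec.snd) ?_
  refine Primrec.ite ?_ ?_ (Primrec.const none)
  · exact Primrec.eq.comp (Primrec.list_length.comp (Primrec.snd.comp Primrec.snd))
      (Primrec.fst.comp (Primrec.fst.comp Primrec.fst))
  · refine Primrec.option_map ?_ ?_
    · refine (primrec_val c M hT).comp (Primrec.pair (Primrec.snd.comp Primrec.snd) ?_)
      exact Primrec.list_append.comp (Primrec.snd.comp (Primrec.fst.comp Primrec.fst))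
        (Primrec.fst.comp Primrec.snd)
    · refine Primrec.pair ?_ Primrec.snd
      exact Primrec.list_append.comp
        (Primrec.snd.comp (Primrec.fst.comp (Primrec.fst.comp Primrec.fst)))
        (Primrec.fst.comp (Primrec.snd.comp Primrec.fst))

/-- The effective extension function. -/
theorem exists_nx {l h : X → X} {R : List Bool × ℕ →. ℕ} (hF : Forced l R [])
    (hl : Continuous l) (hh : Continuous h) (hlh : ∀ y n, h (l y) n = h y (n + 1))
    (hOpen : ∀ τ : List Bool, ∃ u₀ : List Bool, ∀ z, Ex u₀ z → ∃ y, Ex τ y ∧ l y = z) :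
    ∃ nx : ℕ × List Bool → List Bool × Bool, Computable nx ∧
      ∀ n τ, τ <+: (nx (n, τ)).1 ∧ ∀ y, Ex (nx (n, τ)).1 y → h y n = (nx (n, τ)).2 := by
  obtain ⟨c, hcR⟩ := exists_code_of_partrec hF.partrec
  have hRc : Rc c = R := funext hcR
  rw [← hRc] at hF
  have hφ : Continuous (fun y : X => h y 0) := (continuous_apply 0).comp hh
  obtain ⟨M, -, hMod⟩ := exists_modulus hφ 0
  obtain ⟨T, hTp, hTD⟩ := exists_table (fun u : List Bool => h (fill u) 0)
    (D := {u | u.length = M}) (List.finite_length_eq Bool M)
  have hT : ∀ u y, u.length = M → Ex u y → T u = h y 0 := by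
    intro u y hu hy
    rw [hTD u hu]
    apply hMod
    intro i hi
    have h1 := (ex_iff.1 (ex_fill u)) i (by omega)
    have h2 := (ex_iff.1 hy) i (by omega)
    rw [h1] at h2
    simpa using h2
  have hdom : ∀ a : ℕ × List Bool, (Nat.rfindOpt (nxOpt c M T a)).Dom := by
    intro a
    rw [Nat.rfindOpt_dom]
    obtain ⟨ws, w, v, hws, hv⟩ := val_dense (M := M) (T := T) hF hl hOpen a.1 a.2
    refine ⟨encode (w, ws), (a.2 ++ w, v), ?_⟩
    simp only [nxOpt, encodek, Option.bind_some]
    rw [if_pos hws, hv]
    rfl
  refine ⟨fun a => (Nat.rfindOpt (nxOpt c M T a)).get (hdom a), ?_, ?_⟩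
  · have hp : Partrec fun a => Nat.rfindOpt (nxOpt c M T a) :=
      Partrec.rfindOpt (primrec_nxOpt c M hTp).to_comp
    exact hp.of_eq fun a => Part.eq_some_iff.2 (Part.get_mem _)
  · intro n τ
    have hmem := Part.get_mem (hdom (n, τ))
    obtain ⟨e, he⟩ := Nat.rfindOpt_spec hmem
    simp only [nxOpt, Option.mem_def, Option.bind_eq_some_iff] at he
    obtain ⟨⟨w, ws⟩, -, he⟩ := he
    simp only at he
    split_ifs at he with hws
    simp only [Option.map_eq_some_iff] at he
    obtain ⟨v, hv, he⟩ := he
    simp only [← he]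
    refine ⟨List.prefix_append _ _, fun y hy => ?_⟩
    have := val_sound hF hlh hT ws _ v hv y hy
    rwa [hws] at this

end Vale.Agent.Lib.P327
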